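import Vale.Agent.Lib.P034.Enc

namespace Vale.Agent.P034

open Finset

section tails

variable {X : Type*} [DecidableEq X]

theorem prod_one_add_le_exp (Q : Finset X) (z : X → ℝ) (hz : ∀ x, 0 ≤ z x) :
    ∏ x ∈ Q, (1 + z x) ≤ Real.exp (∑ x ∈ Q, z x) := by
  rw [Real.exp_sum]
  apply Finset.prod_le_prod
  · intro x _
    have := hz x
    linarith
  · intro x _
    have := Real.add_one_le_exp (z x)
    linarith

theorem tail_bound (Q : Finset X) (z : X → ℝ) (hz : ∀ x, 0 ≤ z x) (E : ℝ) (hE0 : 0 ≤ E)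
    (i : ℕ) (hsum : ∑ x ∈ Q, 16 * z x ≤ E) :
    ∑ T ∈ Q.powerset.filter (fun T => E + i < (T.card : ℝ)), ∏ x ∈ T, z x ≤ (1 / 16) ^ i := by
  have h1 : ∀ T ∈ Q.powerset.filter (fun T => E + i < (T.card : ℝ)), ∏ x ∈ T, z x ≤
      ((1 / 16) ^ i * Real.exp (-E)) * ∏ x ∈ T, (16 * z x) := by
    intro T hT
    rw [Finset.mem_filter] at hT
    have hi : i ≤ T.card := by
      have : (i : ℝ) < T.card := by linarith [hT.2]
      exact_mod_cast this.le
    obtain ⟨k, hk⟩ := Nat.exists_eq_add_of_le hi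
    rw [Finset.prod_mul_distrib, Finset.prod_const, hk, pow_add]
    have hprod : 0 ≤ ∏ x ∈ T, z x := Finset.prod_nonneg (fun x _ => hz x)
    have hkE : E < k := by
      have := hT.2
      rw [hk] at this
      push_cast at this
      linarith
    have h2 : 1 ≤ Real.exp (-E) * 16 ^ k := by
      have h3 : Real.exp E ≤ 16 ^ k := by
        calc Real.exp E ≤ Real.exp k := Real.exp_le_exp.2 hkE.le
          _ = (Real.exp 1) ^ k := by rw [← Real.exp_nat_mul]; simp
          _ ≤ 16 ^ k := by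
            apply pow_le_pow_left₀ (Real.exp_pos 1).le
            have := Real.exp_one_lt_d9
            linarith
      rw [Real.exp_neg, inv_mul_eq_div, le_div_iff₀ (Real.exp_pos E), one_mul]
      exact h3
    have h4 : ((1 / 16 : ℝ) ^ i * Real.exp (-E)) * (16 ^ i * 16 ^ k * ∏ x ∈ T, z x) =
        (Real.exp (-E) * 16 ^ k) * ∏ x ∈ T, z x := by
      have : (1 / 16 : ℝ) ^ i * 16 ^ i = 1 := by
        rw [← mul_pow]; norm_num
      calc ((1 / 16 : ℝ) ^ i * Real.exp (-E)) * (16 ^ i * 16 ^ k * ∏ x ∈ T, z x) =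
          ((1 / 16 : ℝ) ^ i * 16 ^ i) * ((Real.exp (-E) * 16 ^ k) * ∏ x ∈ T, z x) := by ring
        _ = _ := by rw [this, one_mul]
    rw [h4]
    nlinarith
  calc ∑ T ∈ Q.powerset.filter (fun T => E + i < (T.card : ℝ)), ∏ x ∈ T, z x
      ≤ ∑ T ∈ Q.powerset.filter (fun T => E + i < (T.card : ℝ)),
        ((1 / 16) ^ i * Real.exp (-E)) * ∏ x ∈ T, (16 * z x) := Finset.sum_le_sum h1
    _ ≤ ∑ T ∈ Q.powerset, ((1 / 16) ^ i * Real.exp (-E)) * ∏ x ∈ T, (16 * z x) := by
        apply Finset.sum_le_sum_of_subset_of_nonneg (Finset.filter_subset _ _)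
        intro T _ _
        apply mul_nonneg (by positivity)
        exact Finset.prod_nonneg (fun x _ => by have := hz x; positivity)
    _ = ((1 / 16) ^ i * Real.exp (-E)) * ∏ x ∈ Q, (1 + 16 * z x) := by
        rw [← Finset.mul_sum, Finset.prod_one_add]
    _ ≤ ((1 / 16) ^ i * Real.exp (-E)) * Real.exp E := by
        apply mul_le_mul_of_nonneg_left _ (by positivity)
        refine (prod_one_add_le_exp Q (fun x => 16 * z x)
          (fun x => by have := hz x; positivity)).trans ?_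
        exact Real.exp_le_exp.2 hsum
    _ = (1 / 16) ^ i := by
        rw [mul_assoc, ← Real.exp_add, neg_add_cancel, Real.exp_zero, mul_one]

theorem nonempty_bound (Q : Finset X) (z : X → ℝ) (hz : ∀ x, 0 ≤ z x)
    (hsum : ∑ x ∈ Q, z x ≤ 1 / 16) :
    ∑ T ∈ Q.powerset.filter (fun T => T.Nonempty), ∏ x ∈ T, z x ≤ 1 / 8 := by
  have h1 : ∑ T ∈ Q.powerset, ∏ x ∈ T, z x ≤ Real.exp (∑ x ∈ Q, z x) := by
    rw [← Finset.prod_one_add]
    exact prod_one_add_le_exp Q z hz
  have h2 : ∑ T ∈ Q.powerset, ∏ x ∈ T, z x =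
      ∑ T ∈ Q.powerset.filter (fun T => T.Nonempty), ∏ x ∈ T, z x + 1 := by
    rw [← Finset.sum_filter_add_sum_filter_not Q.powerset (fun T => T.Nonempty)]
    congr 1
    have : Q.powerset.filter (fun T => ¬ T.Nonempty) = {∅} := by
      ext T
      simp only [mem_filter, mem_powerset, Finset.not_nonempty_iff_eq_empty, mem_singleton]
      constructor
      · exact fun h => h.2
      · rintro rfl
        exact ⟨Finset.empty_subset _, rfl⟩
    rw [this, Finset.sum_singleton, Finset.prod_empty]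
  have h3 : Real.exp (∑ x ∈ Q, z x) ≤ 9 / 8 := by
    have h4 : Real.exp (∑ x ∈ Q, z x) ≤ Real.exp (1 / 16) := Real.exp_le_exp.2 hsum
    have h5 : Real.exp (1 / 16) ≤ 9 / 8 := by
      have h6 := Real.add_one_le_exp (-(1 / 16 : ℝ))
      have h7 : Real.exp (1 / 16) * Real.exp (-(1 / 16)) = 1 := by
        rw [← Real.exp_add]; simp
      have h8 : 0 < Real.exp (1 / 16) := Real.exp_pos _
      nlinarith
    linarith
  linarith

end tails

variable {X : Type*} [Fintype X] [DecidableEq X] {R : ℕ}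

/-- `E_l(H)` -/
noncomputable def El (lam : Finset X → X → ℝ) (l : ℕ) (H : Finset X) : ℝ :=
  ∑ x, min 1 (4 ^ l * (lam H x) ^ 2)

/-- the penalty `G_i(H)` -/
noncomputable def Gi (lam : Finset X → X → ℝ) (i : ℕ) (H : Finset X) : ℝ :=
  ∑ l ∈ Finset.range i, (1 / 2) ^ (l + 1) * El lam (l + 1) H

/-- `Ψ(H;η)` -/
noncomputable def Psi (lam : Finset X → X → ℝ) (η : X → Fin (R + 1)) (H : Finset X) : ℝ :=
  ∑ x, ((η x : ℕ) : ℝ) * lam H x

/-- `Ψ + G_i` -/
noncomputable def Phi (lam : Finset X → X → ℝ) (i : ℕ) (η : X → Fin (R + 1))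
    (H : Finset X) : ℝ := Psi lam η H + Gi lam i H

/-- the price of lowering `ξ` to `η` -/
noncomputable def price (i : ℕ) (ξ η : X → Fin (R + 1)) : ℝ :=
  ∑ x, if η x < ξ x then (1 / 2 : ℝ) ^ (i + (η x : ℕ)) else 0

/-- canonical minimiser -/
noncomputable def H0 (F : Finset (Finset X)) (hF : F.Nonempty) (lam : Finset X → X → ℝ) (i : ℕ)
    (η : X → Fin (R + 1)) : Finset X :=
  Classical.choose (Finset.exists_min_image F (Phi lam i η) hF)

theorem H0_mem (F : Finset (Finset X)) (hF : F.Nonempty) (lam : Finset X → X → ℝ) (i : ℕ)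
    (η : X → Fin (R + 1)) : H0 F hF lam i η ∈ F :=
  (Classical.choose_spec (Finset.exists_min_image F (Phi lam i η) hF)).1

theorem H0_min (F : Finset (Finset X)) (hF : F.Nonempty) (lam : Finset X → X → ℝ) (i : ℕ)
    (η : X → Fin (R + 1)) (H : Finset X) (hH : H ∈ F) :
    Phi lam i η (H0 F hF lam i η) ≤ Phi lam i η H :=
  (Classical.choose_spec (Finset.exists_min_image F (Phi lam i η) hF)).2 H hH

/-- the decoded candidate set -/
noncomputable def Qi (F : Finset (Finset X)) (hF : F.Nonempty) (lam : Finset X → X → ℝ) (i : ℕ)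
    (η : X → Fin (R + 1)) : Finset X :=
  Finset.univ.filter (fun x => (1 / 2 : ℝ) ^ (i + (η x : ℕ) + 1) ≤ lam (H0 F hF lam i η) x)

/-- decoding predicate -/
def Wi (F : Finset (Finset X)) (hF : F.Nonempty) (lam : Finset X → X → ℝ) (i : ℕ)
    (η : X → Fin (R + 1)) (T : Finset X) : Prop :=
  T ⊆ Qi F hF lam i η ∧ T.Nonempty ∧ (i ≠ 0 → El lam i (H0 F hF lam i η) + i < (T.card : ℝ))

section

variable (F : Finset (Finset X)) (hF : F.Nonempty) (lam : Finset X → X → ℝ)
  (hlam0 : ∀ H ∈ F, ∀ x, 0 ≤ lam H x) (hlamS : ∀ H ∈ F, ∀ x, x ∉ H → lam H x = 0)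
  (hlam1 : ∀ H ∈ F, ∑ x, lam H x = 1)

omit [DecidableEq X] in
theorem El_nonneg (l : ℕ) (H : Finset X) : 0 ≤ El lam l H :=
  Finset.sum_nonneg (fun x _ => le_min zero_le_one (by positivity))

include hlam0 in
theorem sum_Qi_le (i : ℕ) (η : X → Fin (R + 1)) :
    ∑ x ∈ Qi F hF lam i η, (1 / 4 : ℝ) ^ (η x : ℕ) ≤ 4 * El lam i (H0 F hF lam i η) := by
  have h1 : ∀ x ∈ Qi F hF lam i η, (1 / 4 : ℝ) ^ (η x : ℕ) ≤
      4 * min 1 (4 ^ i * (lam (H0 F hF lam i η) x) ^ 2) := by
    intro x hx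
    unfold Qi at hx
    rw [Finset.mem_filter] at hx
    have h2 := hx.2
    set y := lam (H0 F hF lam i η) x with hy
    have hy0 : 0 ≤ y := hlam0 _ (H0_mem F hF lam i η) x
    rw [mul_min_of_nonneg _ _ (by norm_num : (0 : ℝ) ≤ 4)]
    apply le_min
    · have : (1 / 4 : ℝ) ^ (η x : ℕ) ≤ 1 := pow_le_one₀ (by norm_num) (by norm_num)
      linarith
    · have h3 : ((1 / 2 : ℝ) ^ (i + (η x : ℕ) + 1)) ^ 2 ≤ y ^ 2 :=
        pow_le_pow_left₀ (by positivity) h2 2
      have h4 : ((1 / 2 : ℝ) ^ (i + (η x : ℕ) + 1)) ^ 2 =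
          (1 / 4) ^ i * (1 / 4) ^ (η x : ℕ) * (1 / 4) := by
        rw [← pow_mul, mul_comm _ 2, pow_mul, pow_add, pow_add]
        norm_num
      rw [h4] at h3
      have h5 : (4 : ℝ) ^ i * (1 / 4) ^ i = 1 := by rw [← mul_pow]; norm_num
      calc (1 / 4 : ℝ) ^ (η x : ℕ) = 4 * (4 ^ i * ((1 / 4) ^ i * (1 / 4) ^ (η x : ℕ) * (1 / 4))) := by
            linear_combination (-(1 / 4 : ℝ) ^ (η x : ℕ)) * h5
        _ ≤ 4 * (4 ^ i * y ^ 2) := by
            apply mul_le_mul_of_nonneg_left _ (by norm_num)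
            exact mul_le_mul_of_nonneg_left h3 (by positivity)
  refine (Finset.sum_le_sum h1).trans ?_
  rw [← Finset.mul_sum]
  apply mul_le_mul_of_nonneg_left _ (by norm_num)
  unfold El
  exact Finset.sum_le_sum_of_subset_of_nonneg (Finset.subset_univ _)
    (fun x _ _ => le_min zero_le_one (by positivity))

open Classical in
include hlam0 in
theorem weight_pos (i : ℕ) (hi : i ≠ 0) (η : X → Fin (R + 1)) :
    ∑ T ∈ (Finset.univ : Finset (Finset X)).filter (Wi F hF lam i η),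
      ∏ x ∈ T, ((1 / 4 : ℝ) ^ (η x : ℕ) / 64) ≤ (1 / 16) ^ i := by
  refine le_trans ?_ (tail_bound (Qi F hF lam i η) (fun x => (1 / 4 : ℝ) ^ (η x : ℕ) / 64)
    (fun x => by positivity) (El lam i (H0 F hF lam i η)) (El_nonneg lam i _) i ?_)
  · apply Finset.sum_le_sum_of_subset_of_nonneg
    · intro T hT
      rw [Finset.mem_filter] at hT
      rw [Finset.mem_filter, Finset.mem_powerset]
      exact ⟨hT.2.1, hT.2.2.2 hi⟩
    · intro T _ _
      exact Finset.prod_nonneg (fun x _ => by positivity)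
  · have h1 := sum_Qi_le F hF lam hlam0 i η
    have h2 : ∑ x ∈ Qi F hF lam i η, 16 * ((1 / 4 : ℝ) ^ (η x : ℕ) / 64) =
        (1 / 4) * ∑ x ∈ Qi F hF lam i η, (1 / 4 : ℝ) ^ (η x : ℕ) := by
      rw [Finset.mul_sum]
      apply Finset.sum_congr rfl
      intro x _
      ring
    rw [h2]
    linarith

open Classical in
include hlam0 hlam1 in
theorem weight_zero (η : X → Fin (R + 1)) :
    ∑ T ∈ (Finset.univ : Finset (Finset X)).filter (Wi F hF lam 0 η),
      ∏ x ∈ T, ((1 / 4 : ℝ) ^ (η x : ℕ) / 64) ≤ 1 / 8 := by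
  refine le_trans ?_ (nonempty_bound (Qi F hF lam 0 η) (fun x => (1 / 4 : ℝ) ^ (η x : ℕ) / 64)
    (fun x => by positivity) ?_)
  · apply Finset.sum_le_sum_of_subset_of_nonneg
    · intro T hT
      rw [Finset.mem_filter] at hT
      rw [Finset.mem_filter, Finset.mem_powerset]
      exact ⟨hT.2.1, hT.2.2.1⟩
    · intro T _ _
      exact Finset.prod_nonneg (fun x _ => by positivity)
  · have h1 := sum_Qi_le F hF lam hlam0 0 η
    have h2 : ∑ x ∈ Qi F hF lam 0 η, ((1 / 4 : ℝ) ^ (η x : ℕ) / 64) =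
        (1 / 64) * ∑ x ∈ Qi F hF lam 0 η, (1 / 4 : ℝ) ^ (η x : ℕ) := by
      rw [Finset.mul_sum]
      apply Finset.sum_congr rfl
      intro x _
      ring
    have h3 : El lam 0 (H0 F hF lam 0 η) ≤ 1 := by
      rw [← hlam1 _ (H0_mem F hF lam 0 η)]
      unfold El
      apply Finset.sum_le_sum
      intro x _
      have h4 := hlam0 _ (H0_mem F hF lam 0 η) x
      rw [pow_zero, one_mul]
      rcases le_total (lam (H0 F hF lam 0 η) x) 1 with h | h
      · exact (min_le_right _ _).trans (by nlinarith)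
      · exact (min_le_left _ _).trans h
    rw [h2]
    linarith

end

end Vale.Agent.P034
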