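import Vale.Agent.Lib.P034.Chain

namespace Vale.Agent.P034

open Finset

theorem single_sum (y : ℝ) (hy : 0 ≤ y) (n : ℕ) :
    ∑ l ∈ Finset.range n, (1 / 2 : ℝ) ^ (l + 1) * min 1 (4 ^ (l + 1) * y ^ 2) ≤ 3 * y := by
  have key : ∀ n : ℕ, ∑ l ∈ Finset.range n, (1 / 2 : ℝ) ^ (l + 1) * min 1 (4 ^ (l + 1) * y ^ 2) ≤
      if y ≤ (1 / 2 : ℝ) ^ (n + 1) then 2 ^ (n + 1) * y ^ 2 else 3 * y - 2 * (1 / 2) ^ (n + 1) := by
    intro n
    induction n with
    | zero =>
      simp only [Finset.range_zero, Finset.sum_empty]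
      split_ifs with h
      · positivity
      · push Not at h
        norm_num at h ⊢
        linarith
    | succ n ih =>
      rw [Finset.sum_range_succ]
      refine (add_le_add_left ih _).trans ?_
      set c : ℝ := (1 / 2) ^ (n + 1) with hc
      have hc0 : 0 < c := by positivity
      have h2c : (2 : ℝ) ^ (n + 1) * c = 1 := by rw [hc, ← mul_pow]; norm_num
      have h2 : (2 : ℝ) ^ (n + 1) = 1 / c := by field_simp; linarith
      have h4 : (4 : ℝ) ^ (n + 1) = 1 / c ^ 2 := by
        rw [show (4 : ℝ) = 2 * 2 by norm_num, mul_pow, h2]; field_simp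
      have hn2 : (1 / 2 : ℝ) ^ (n + 1 + 1) = c / 2 := by rw [pow_succ, ← hc]; ring
      have h22 : (2 : ℝ) ^ (n + 1 + 1) = 2 / c := by rw [pow_succ, h2]; ring
      rw [hn2, h22, h2, h4]
      have hmul : c * min 1 (1 / c ^ 2 * y ^ 2) = min c (y ^ 2 / c) := by
        rw [mul_min_of_nonneg _ _ hc0.le]
        congr 1
        · ring
        · field_simp
      rw [hmul]
      by_cases h1 : y ≤ c / 2
      · have h3 : y ≤ c := by linarith
        rw [if_pos h3, if_pos h1]
        have : min c (y ^ 2 / c) ≤ y ^ 2 / c := min_le_right _ _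
        calc 1 / c * y ^ 2 + min c (y ^ 2 / c) ≤ 1 / c * y ^ 2 + y ^ 2 / c := by linarith
          _ = 2 / c * y ^ 2 := by ring
      · rw [if_neg h1]
        push Not at h1
        by_cases h3 : y ≤ c
        · rw [if_pos h3]
          have h5 : min c (y ^ 2 / c) ≤ y ^ 2 / c := min_le_right _ _
          have h6 : 2 * (y ^ 2 / c) ≤ 3 * y - c := by
            rw [← mul_div_assoc, div_le_iff₀ hc0]
            nlinarith
          calc 1 / c * y ^ 2 + min c (y ^ 2 / c) ≤ 1 / c * y ^ 2 + y ^ 2 / c := by linarith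
            _ = 2 * (y ^ 2 / c) := by ring
            _ ≤ 3 * y - 2 * (c / 2) := by linarith
        · rw [if_neg h3]
          have h5 : min c (y ^ 2 / c) ≤ c := min_le_left _ _
          linarith
  refine (key n).trans ?_
  split_ifs with h
  · have h1 : (2 : ℝ) ^ (n + 1) * (1 / 2) ^ (n + 1) = 1 := by rw [← mul_pow]; norm_num
    have h2 : (0 : ℝ) < 2 ^ (n + 1) := by positivity
    have h3 : 2 ^ (n + 1) * y ≤ 1 := by
      calc 2 ^ (n + 1) * y ≤ 2 ^ (n + 1) * (1 / 2) ^ (n + 1) :=
            mul_le_mul_of_nonneg_left h h2.le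
        _ = 1 := h1
    nlinarith
  · have : (0 : ℝ) < (1 / 2) ^ (n + 1) := by positivity
    linarith

variable {X : Type*} [Fintype X] [DecidableEq X] {R : ℕ}

/-- admissible lowering -/
def Adm (ξ : X → Fin (R + 1)) (H : Finset X) (η : X → Fin (R + 1)) : Prop :=
  (∀ x, η x ≤ ξ x) ∧ ∀ x, x ∉ H → η x = ξ x

/-- the Lagrangian -/
noncomputable def Lag (lam : Finset X → X → ℝ) (i : ℕ) (ξ η : X → Fin (R + 1))
    (H : Finset X) : ℝ := price i ξ η + Phi lam i η H

section

variable (F : Finset (Finset X)) (hF : F.Nonempty) (lam : Finset X → X → ℝ)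
  (hlam0 : ∀ H ∈ F, ∀ x, 0 ≤ lam H x) (hlamS : ∀ H ∈ F, ∀ x, x ∉ H → lam H x = 0)
  (hlam1 : ∀ H ∈ F, ∑ x, lam H x = 1)

open Classical in
omit [DecidableEq X] in
theorem exists_opt (i : ℕ) (ξ : X → Fin (R + 1)) (H : Finset X) :
    ∃ η, Adm ξ H η ∧ ∀ H' ∈ F, ∀ η', Adm ξ H η' →
      Lag lam i ξ η (H0 F hF lam i η) ≤ Lag lam i ξ η' H' := by
  obtain ⟨H₁, hH₁⟩ := hF
  obtain ⟨y, hy, hymin⟩ := Finset.exists_min_image
    (F ×ˢ (Finset.univ : Finset (X → Fin (R + 1))).filter (Adm ξ H))
    (fun y => Lag lam i ξ y.2 y.1) ⟨(H₁, ξ), by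
      rw [Finset.mem_product, Finset.mem_filter]
      exact ⟨hH₁, Finset.mem_univ _, fun x => le_rfl, fun x _ => rfl⟩⟩
  rw [Finset.mem_product, Finset.mem_filter] at hy
  refine ⟨y.2, hy.2.2, fun H' hH' η' hη' => ?_⟩
  have h1 := hymin (H', η') (by
    rw [Finset.mem_product, Finset.mem_filter]
    exact ⟨hH', Finset.mem_univ _, hη'⟩)
  refine le_trans ?_ h1
  unfold Lag
  have := H0_min F ⟨H₁, hH₁⟩ lam i y.2 y.1 hy.1
  linarith

theorem opt_subset (i : ℕ) (ξ : X → Fin (R + 1)) (H : Finset X) (η : X → Fin (R + 1))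
    (hadm : Adm ξ H η) (hopt : ∀ H' ∈ F, ∀ η', Adm ξ H η' →
      Lag lam i ξ η (H0 F hF lam i η) ≤ Lag lam i ξ η' H') :
    Finset.univ.filter (fun x => η x < ξ x) ⊆ Qi F hF lam i η := by
  intro x hx
  rw [Finset.mem_filter] at hx
  have hlt := hx.2
  set K := H0 F hF lam i η with hK
  have hKF : K ∈ F := H0_mem F hF lam i η
  have hxH : x ∈ H := by
    by_contra hcon
    have := hadm.2 x hcon
    rw [this] at hlt
    exact lt_irrefl _ hlt
  have hltn : (η x : ℕ) < (ξ x : ℕ) := hlt
  have hr : (η x : ℕ) + 1 < R + 1 := by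
    have := (ξ x).isLt
    omega
  set r : Fin (R + 1) := ⟨(η x : ℕ) + 1, hr⟩ with hrdef
  set η' : X → Fin (R + 1) := Function.update η x r with hη'
  have hadm' : Adm ξ H η' := by
    constructor
    · intro y
      by_cases hy : y = x
      · subst hy
        rw [hη', Function.update_self, Fin.le_def]
        exact hltn
      · rw [hη', Function.update_of_ne hy]
        exact hadm.1 y
    · intro y hy
      have hyx : y ≠ x := by
        rintro rfl
        exact hy hxH
      rw [hη', Function.update_of_ne hyx]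
      exact hadm.2 y hy
  have h1 := hopt K hKF η' hadm'
  have hLag : ∀ ζ : X → Fin (R + 1), Lag lam i ξ ζ K =
      ∑ y, ((if ζ y < ξ y then (1 / 2 : ℝ) ^ (i + (ζ y : ℕ)) else 0) +
        ((ζ y : ℕ) : ℝ) * lam K y) + Gi lam i K := by
    intro ζ
    unfold Lag price Phi Psi
    rw [Finset.sum_add_distrib]
    ring
  rw [hLag, hLag, ← Finset.add_sum_erase _ _ (Finset.mem_univ x),
    ← Finset.add_sum_erase _ _ (Finset.mem_univ x)] at h1
  have h2 : ∑ y ∈ Finset.univ.erase x, ((if η' y < ξ y then (1 / 2 : ℝ) ^ (i + (η' y : ℕ)) else 0) +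
        ((η' y : ℕ) : ℝ) * lam K y) =
      ∑ y ∈ Finset.univ.erase x, ((if η y < ξ y then (1 / 2 : ℝ) ^ (i + (η y : ℕ)) else 0) +
        ((η y : ℕ) : ℝ) * lam K y) := by
    apply Finset.sum_congr rfl
    intro y hy
    rw [hη', Function.update_of_ne (Finset.ne_of_mem_erase hy)]
  rw [h2] at h1
  have h3 : η' x = r := by rw [hη', Function.update_self]
  rw [h3, if_pos hlt] at h1
  have h4 : (if r < ξ x then (1 / 2 : ℝ) ^ (i + (r : ℕ)) else 0) ≤
      (1 / 2) ^ (i + (η x : ℕ) + 1) := by
    split_ifs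
    · exact le_of_eq (by rw [hrdef]; rfl)
    · positivity
  have h5 : ((r : ℕ) : ℝ) = ((η x : ℕ) : ℝ) + 1 := by rw [hrdef]; push_cast; ring
  have h6 : (1 / 2 : ℝ) ^ (i + (η x : ℕ)) = 2 * (1 / 2) ^ (i + (η x : ℕ) + 1) := by
    rw [pow_succ]; ring
  unfold Qi
  rw [Finset.mem_filter]
  refine ⟨Finset.mem_univ _, ?_⟩
  rw [← hK]
  rw [h5, h6] at h1
  nlinarith

omit [DecidableEq X] in
include hlam0 hlam1 in
theorem Gi_le (i : ℕ) (H : Finset X) (hH : H ∈ F) : Gi lam i H ≤ 3 := by
  unfold Gi El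
  simp only [Finset.mul_sum]
  rw [Finset.sum_comm]
  calc ∑ x, ∑ l ∈ Finset.range i, (1 / 2 : ℝ) ^ (l + 1) * min 1 (4 ^ (l + 1) * (lam H x) ^ 2)
      ≤ ∑ x, 3 * lam H x :=
        Finset.sum_le_sum (fun x _ => single_sum (lam H x) (hlam0 H hH x) i)
    _ = 3 := by rw [← Finset.mul_sum, hlam1 H hH, mul_one]

omit [DecidableEq X] in
theorem price_le (i : ℕ) (ξ η : X → Fin (R + 1)) :
    price i ξ η ≤ (1 / 2) ^ i * ((Finset.univ.filter (fun x => η x < ξ x)).card : ℝ) := by
  unfold price
  rw [Finset.card_filter, Nat.cast_sum, Finset.mul_sum]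
  apply Finset.sum_le_sum
  intro x _
  split_ifs
  · rw [pow_add]
    have h1 : (1 / 2 : ℝ) ^ (η x : ℕ) ≤ 1 := pow_le_one₀ (by norm_num) (by norm_num)
    have h2 : (0 : ℝ) < (1 / 2) ^ i := by positivity
    push_cast
    nlinarith
  · simp

omit [DecidableEq X] in
theorem price_succ (i : ℕ) (ξ η : X → Fin (R + 1)) :
    price i ξ η = 2 * price (i + 1) ξ η := by
  unfold price
  rw [Finset.mul_sum]
  apply Finset.sum_congr rfl
  intro x _
  split_ifs
  · rw [show i + 1 + (η x : ℕ) = i + (η x : ℕ) + 1 by ring, pow_succ]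
    ring
  · simp

include hlam0 hlamS hlam1 in
theorem chain (ξ : X → Fin (R + 1)) (H : Finset X) (hH : H ∈ F) (m : ℕ)
    (hm : (Fintype.card X : ℝ) ≤ 2 ^ m) :
    (∃ i ≤ m, ∃ η : X → Fin (R + 1), (∀ x, η x ≤ ξ x) ∧
      Finset.univ.filter (fun x => η x < ξ x) ⊆ H ∧
      Wi F hF lam i η (Finset.univ.filter (fun x => η x < ξ x))) ∨
    ∃ H' ∈ F, Psi lam ξ H' ≤ 7 := by
  classical
  choose η hadm hopt using fun i => exists_opt F hF lam i ξ H
  set T : ℕ → Finset X := fun i => Finset.univ.filter (fun x => η i x < ξ x) with hT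
  by_cases hbad : ∃ i ≤ m, (T i).Nonempty ∧
      (i ≠ 0 → El lam i (H0 F hF lam i (η i)) + i < ((T i).card : ℝ))
  · left
    obtain ⟨i, him, h1, h2⟩ := hbad
    refine ⟨i, him, η i, (hadm i).1, ?_, opt_subset F hF lam i ξ H (η i) (hadm i) (hopt i), h1, h2⟩
    intro x hx
    rw [Finset.mem_filter] at hx
    by_contra hcon
    have := (hadm i).2 x hcon
    rw [this] at hx
    exact lt_irrefl _ hx.2
  · right
    push Not at hbad
    set v : ℕ → ℝ := fun i => Lag lam i ξ (η i) (H0 F hF lam i (η i)) with hv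
    -- start
    have hvm : v m ≤ 5 := by
      set η' : X → Fin (R + 1) := fun x => if x ∈ H then 0 else ξ x with hη'
      have hadm' : Adm ξ H η' := by
        constructor
        · intro x
          simp only [hη']
          split_ifs
          · exact Fin.zero_le _
          · exact le_rfl
        · intro x hx
          simp only [hη', hx, if_false]
      have h1 := hopt m H hH η' hadm'
      refine h1.trans ?_
      unfold Lag Phi
      have h2 : price m ξ η' ≤ 1 := by
        refine (price_le m ξ η').trans ?_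
        have h3 : ((Finset.univ.filter (fun x => η' x < ξ x)).card : ℝ) ≤ 2 ^ m := by
          refine le_trans ?_ hm
          exact_mod_cast Finset.card_le_univ _
        calc (1 / 2 : ℝ) ^ m * ((Finset.univ.filter (fun x => η' x < ξ x)).card : ℝ)
            ≤ (1 / 2) ^ m * 2 ^ m := mul_le_mul_of_nonneg_left h3 (by positivity)
          _ = 1 := by rw [← mul_pow]; norm_num
      have h4 : Psi lam η' H = 0 := by
        unfold Psi
        apply Finset.sum_eq_zero
        intro x _
        by_cases hx : x ∈ H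
        · simp [hη', hx]
        · rw [hlamS H hH x hx, mul_zero]
      have h5 := Gi_le F lam hlam0 hlam1 m H hH
      rw [h4]
      linarith
    -- one step
    have hstep : ∀ i, i + 1 ≤ m → v i ≤ v (i + 1) + (1 / 2) ^ (i + 1) * ((i : ℝ) + 1) := by
      intro i hi
      have h1 := hopt i (H0 F hF lam (i + 1) (η (i + 1))) (H0_mem F hF lam _ _) (η (i + 1))
        (hadm (i + 1))
      have h2 : ((T (i + 1)).card : ℝ) ≤
          El lam (i + 1) (H0 F hF lam (i + 1) (η (i + 1))) + ((i : ℝ) + 1) := by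
        rcases Finset.eq_empty_or_nonempty (T (i + 1)) with h3 | h3
        · rw [h3, Finset.card_empty, Nat.cast_zero]
          have := El_nonneg lam (i + 1) (H0 F hF lam (i + 1) (η (i + 1)))
          positivity
        · have := (hbad (i + 1) hi h3).2
          push_cast at this
          linarith
      have h3 := price_le (i + 1) ξ (η (i + 1))
      have h4 := price_succ i ξ (η (i + 1))
      have h5 : Gi lam (i + 1) (H0 F hF lam (i + 1) (η (i + 1))) =
          Gi lam i (H0 F hF lam (i + 1) (η (i + 1))) +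
          (1 / 2) ^ (i + 1) * El lam (i + 1) (H0 F hF lam (i + 1) (η (i + 1))) := by
        unfold Gi
        rw [Finset.sum_range_succ]
      have h6 : (0 : ℝ) < (1 / 2) ^ (i + 1) := by positivity
      have h7 := mul_le_mul_of_nonneg_left h2 h6.le
      simp only [hv]
      refine h1.trans ?_
      unfold Lag Phi
      rw [h4, h5]
      have h8 : price (i + 1) ξ (η (i + 1)) ≤ (1 / 2) ^ (i + 1) *
          (El lam (i + 1) (H0 F hF lam (i + 1) (η (i + 1))) + ((i : ℝ) + 1)) := h3.trans h7
      linarith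
    have hclaim : ∀ k, k ≤ m → v (m - k) ≤ 5 + (((m - k : ℕ) : ℝ) + 2) * (1 / 2) ^ (m - k) := by
      intro k
      induction k with
      | zero =>
        intro _
        rw [Nat.sub_zero]
        have : (0 : ℝ) ≤ ((m : ℝ) + 2) * (1 / 2) ^ m := by positivity
        linarith
      | succ k ih =>
        intro hk
        have h1 := ih (by omega)
        obtain ⟨i, hi⟩ : ∃ i, m - k = i + 1 := ⟨m - k - 1, by omega⟩
        have hi' : m - (k + 1) = i := by omega
        rw [hi'] 
        rw [hi] at h1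
        have h2 := hstep i (by omega)
        push_cast at h1
        have h3 : (1 / 2 : ℝ) ^ (i + 1) = (1 / 2) ^ i / 2 := by rw [pow_succ]; ring
        rw [h3] at h1 h2
        nlinarith
    have hv0 : v 0 ≤ 7 := by
      have := hclaim m le_rfl
      rw [Nat.sub_self] at this
      norm_num at this
      linarith
    -- at scale 0 nothing is purchased
    have hT0 : T 0 = ∅ := by
      rcases Finset.eq_empty_or_nonempty (T 0) with h3 | h3
      · exact h3
      · have := (hbad 0 (Nat.zero_le _) h3).1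
        exact absurd rfl this
    have hη0 : η 0 = ξ := by
      funext x
      apply le_antisymm ((hadm 0).1 x)
      by_contra hcon
      push Not at hcon
      have : x ∈ T 0 := by
        simp only [hT, Finset.mem_filter]
        exact ⟨Finset.mem_univ _, hcon⟩
      rw [hT0] at this
      simp at this
    refine ⟨H0 F hF lam 0 (η 0), H0_mem F hF lam 0 (η 0), ?_⟩
    simp only [hv] at hv0
    unfold Lag Phi at hv0
    have h1 : price 0 ξ (η 0) = 0 := by
      unfold price
      rw [hη0]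
      simp
    have h2 : Gi lam 0 (H0 F hF lam 0 (η 0)) = 0 := by
      unfold Gi
      simp
    rw [h1, h2, zero_add, add_zero] at hv0
    have h3 : Psi lam (η 0) (H0 F hF lam 0 (η 0)) = Psi lam ξ (H0 F hF lam 0 (η 0)) := by
      rw [hη0]
    rw [← h3]
    exact hv0

end

end Vale.Agent.P034
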