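import Mathlib

/-!
Definitions for P034 (integral versus fractional expectation thresholds).
-/

namespace Vale.Agent.P034

/-- The cost `c_p(G) = ∑_{S ∈ G} p^|S|`. -/
noncomputable def cost {X : Type*} (p : ℝ) (G : Finset (Finset X)) : ℝ := ∑ S ∈ G, p ^ S.card

/-- `G` covers `F`: every member of `F` contains a member of `G`. -/
def Covers {X : Type*} (G F : Finset (Finset X)) : Prop := ∀ H ∈ F, ∃ S ∈ G, S ⊆ H

/-- The expectation threshold `q(F)`. -/
noncomputable def q {X : Type*} (F : Finset (Finset X)) : ℝ :=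
  sSup {p : ℝ | 0 ≤ p ∧ p ≤ 1 ∧ ∃ G : Finset (Finset X), Covers G F ∧ cost p G ≤ 1 / 2}

/-- `g` is a fractional cover of `F`. -/
def FracCover {X : Type*} (g : Finset X → ℝ) (F : Finset (Finset X)) : Prop :=
  (∀ S, 0 ≤ g S ∧ g S ≤ 1) ∧ ∀ H ∈ F, 1 ≤ ∑ S ∈ H.powerset, g S

/-- The fractional expectation threshold `q_f(F)`. -/
noncomputable def qf {X : Type*} [Fintype X] (F : Finset (Finset X)) : ℝ :=
  sSup {p : ℝ | 0 ≤ p ∧ p ≤ 1 ∧ ∃ g : Finset X → ℝ, FracCover g F ∧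
    ∑ S : Finset X, g S * p ^ S.card ≤ 1 / 2}

end Vale.Agent.P034
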