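import Vale.Agent.Lib.P034.Defs

namespace Vale.Agent.P034

open Finset

variable {X : Type*} [Fintype X] [DecidableEq X]

/-- probability weight of a level function -/
noncomputable def pw {R : ℕ} (μ : Fin (R + 1) → ℝ) (ξ : X → Fin (R + 1)) : ℝ := ∏ x, μ (ξ x)

omit [DecidableEq X] in
theorem pw_nonneg {R : ℕ} {μ : Fin (R + 1) → ℝ} (h0 : ∀ r, 0 ≤ μ r) (ξ : X → Fin (R + 1)) :
    0 ≤ pw μ ξ := Finset.prod_nonneg (fun _ _ => h0 _)

theorem sum_pw_mul {R : ℕ} (μ : Fin (R + 1) → ℝ) (f : X → Fin (R + 1) → ℝ) :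
    ∑ ξ : X → Fin (R + 1), pw μ ξ * ∏ x, f x (ξ x) = ∏ x, ∑ r, μ r * f x r := by
  rw [Finset.prod_univ_sum]
  rw [Fintype.piFinset_univ]
  apply Finset.sum_congr rfl
  intro ξ _
  unfold pw
  rw [← Finset.prod_mul_distrib]

theorem sum_pw {R : ℕ} (μ : Fin (R + 1) → ℝ) (h1 : ∑ r, μ r = 1) :
    ∑ ξ : X → Fin (R + 1), pw μ ξ = 1 := by
  have h := sum_pw_mul (X := X) μ (fun _ _ => 1)
  simpa [h1] using h

/-- the level functions `ξ ≥ η` differing from `η` exactly on `T`. -/
def fib {R : ℕ} (η : X → Fin (R + 1)) (T : Finset X) : Finset (X → Fin (R + 1)) :=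
  (Finset.univ : Finset (X → Fin (R + 1))).filter
    (fun ξ => (∀ x, η x ≤ ξ x) ∧ T = Finset.univ.filter (fun x => η x < ξ x))

/-- the encoding inequality for fixed `η`, `T`. -/
theorem enc_one {R : ℕ} {μ : Fin (R + 1) → ℝ} {p : ℝ} (hp : 0 ≤ p) (h0 : ∀ r, 0 ≤ μ r)
    (h1 : ∑ r, μ r = 1) (hmu : ∀ r : Fin (R + 1), (r : ℕ) < R → μ r = 64 * 4 ^ (r : ℕ) * p)
    (η : X → Fin (R + 1)) (T : Finset X) :
    p ^ T.card * ∑ ξ ∈ fib η T, pw μ ξ ≤
    pw μ η * ∏ x ∈ T, ((1 / 4 : ℝ) ^ (η x : ℕ) / 64) := by
  have hsub : fib η T ⊆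
      Fintype.piFinset (fun x => if x ∈ T then Finset.Ioi (η x) else {η x}) := by
    intro ξ hξ
    unfold fib at hξ
    rw [Finset.mem_filter] at hξ
    obtain ⟨-, h2, h3⟩ := hξ
    rw [Fintype.mem_piFinset]
    intro x
    by_cases hx : x ∈ T
    · rw [if_pos hx, Finset.mem_Ioi]
      rw [h3, Finset.mem_filter] at hx
      exact hx.2
    · rw [if_neg hx, Finset.mem_singleton]
      rw [h3, Finset.mem_filter] at hx
      push Not at hx
      exact le_antisymm (hx (Finset.mem_univ _)) (h2 x)
  have hle : ∑ ξ ∈ fib η T, pw μ ξ ≤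
      ∏ x, ∑ r ∈ (if x ∈ T then Finset.Ioi (η x) else {η x}), μ r := by
    rw [Finset.prod_univ_sum]
    exact Finset.sum_le_sum_of_subset_of_nonneg hsub (fun ξ _ _ => pw_nonneg h0 ξ)
  have hpT : p ^ T.card = ∏ x : X, (if x ∈ T then p else 1) := by
    rw [Finset.prod_ite_mem, Finset.univ_inter, Finset.prod_const]
  have hRT : ∏ x ∈ T, ((1 / 4 : ℝ) ^ (η x : ℕ) / 64) =
      ∏ x : X, (if x ∈ T then (1 / 4 : ℝ) ^ (η x : ℕ) / 64 else 1) := by
    rw [Finset.prod_ite_mem, Finset.univ_inter]
  calc p ^ T.card * ∑ ξ ∈ fib η T, pw μ ξ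
      ≤ p ^ T.card * ∏ x, ∑ r ∈ (if x ∈ T then Finset.Ioi (η x) else {η x}), μ r :=
        mul_le_mul_of_nonneg_left hle (by positivity)
    _ = ∏ x, ((if x ∈ T then p else 1) *
          ∑ r ∈ (if x ∈ T then Finset.Ioi (η x) else {η x}), μ r) := by
        rw [hpT, ← Finset.prod_mul_distrib]
    _ ≤ ∏ x, (μ (η x) * (if x ∈ T then (1 / 4 : ℝ) ^ (η x : ℕ) / 64 else 1)) := by
        apply Finset.prod_le_prod
        · intro x _
          apply mul_nonneg
          · split_ifs
            · exact hp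
            · exact zero_le_one
          · exact Finset.sum_nonneg (fun r _ => h0 r)
        · intro x _
          by_cases hx : x ∈ T
          · simp only [hx, if_true]
            have hsum : ∑ r ∈ Finset.Ioi (η x), μ r ≤ 1 := by
              rw [← h1]
              exact Finset.sum_le_sum_of_subset_of_nonneg (Finset.subset_univ _)
                (fun r _ _ => h0 r)
            by_cases hlast : (η x : ℕ) < R
            · rw [hmu _ hlast]
              have : 64 * 4 ^ (η x : ℕ) * p * ((1 / 4 : ℝ) ^ (η x : ℕ) / 64) = p := by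
                rw [one_div, inv_pow]
                field_simp
              rw [this]
              calc p * ∑ r ∈ Finset.Ioi (η x), μ r ≤ p * 1 := mul_le_mul_of_nonneg_left hsum hp
                _ = p := mul_one p
            · have hemp : Finset.Ioi (η x) = ∅ := by
                apply Finset.eq_empty_of_forall_notMem
                intro r hr
                rw [Finset.mem_Ioi, Fin.lt_def] at hr
                have := r.isLt
                omega
              rw [hemp, Finset.sum_empty, mul_zero]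
              exact mul_nonneg (h0 _) (by positivity)
          · simp [hx]
    _ = pw μ η * ∏ x ∈ T, ((1 / 4 : ℝ) ^ (η x : ℕ) / 64) := by
        rw [Finset.prod_mul_distrib, hRT]
        rfl

open Classical in
/-- the family of fragments defined by the decoding predicate `W`. -/
noncomputable def frag {R : ℕ} (W : (X → Fin (R + 1)) → Finset X → Prop)
    (ξ : X → Fin (R + 1)) : Finset (Finset X) :=
  (Finset.univ : Finset (Finset X)).filter
      (fun T => ∃ η : X → Fin (R + 1), (∀ x, η x ≤ ξ x) ∧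
        T = Finset.univ.filter (fun x => η x < ξ x) ∧ W η T)

open Classical in
/-- the encoding inequality. -/
theorem enc {R : ℕ} {μ : Fin (R + 1) → ℝ} {p : ℝ} (hp : 0 ≤ p) (h0 : ∀ r, 0 ≤ μ r)
    (h1 : ∑ r, μ r = 1) (hmu : ∀ r : Fin (R + 1), (r : ℕ) < R → μ r = 64 * 4 ^ (r : ℕ) * p)
    (W : (X → Fin (R + 1)) → Finset X → Prop) :
    ∑ ξ : X → Fin (R + 1), pw μ ξ * cost p (frag W ξ) ≤
    ∑ η : X → Fin (R + 1), pw μ η * ∑ T ∈ (Finset.univ : Finset (Finset X)).filter (W η),
      ∏ x ∈ T, ((1 / 4 : ℝ) ^ (η x : ℕ) / 64) := by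
  have step1 : ∀ ξ : X → Fin (R + 1), cost p (frag W ξ) ≤
      ∑ η : X → Fin (R + 1), ∑ T : Finset X, if W η T then
        (if (∀ x, η x ≤ ξ x) ∧ T = Finset.univ.filter (fun x => η x < ξ x) then
          p ^ T.card else 0) else 0 := by
    intro ξ
    unfold cost frag
    rw [Finset.sum_filter, Finset.sum_comm]
    apply Finset.sum_le_sum
    intro T _
    have hnn : ∀ η ∈ (Finset.univ : Finset (X → Fin (R + 1))), 0 ≤ (if W η T then
        (if (∀ x, η x ≤ ξ x) ∧ T = Finset.univ.filter (fun x => η x < ξ x) then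
          p ^ T.card else 0) else 0) := by
      intro η _
      split_ifs
      · positivity
      · exact le_rfl
      · exact le_rfl
    split_ifs with h
    · obtain ⟨η, h2, h3, h4⟩ := h
      refine le_trans (le_of_eq ?_) (Finset.single_le_sum hnn (Finset.mem_univ η))
      rw [if_pos h4, if_pos ⟨h2, h3⟩]
    · exact Finset.sum_nonneg hnn
  calc ∑ ξ : X → Fin (R + 1), pw μ ξ * cost p (frag W ξ)
      ≤ ∑ ξ : X → Fin (R + 1), pw μ ξ * ∑ η : X → Fin (R + 1), ∑ T : Finset X, (if W η T then
        (if (∀ x, η x ≤ ξ x) ∧ T = Finset.univ.filter (fun x => η x < ξ x) then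
          p ^ T.card else 0) else 0) := by
        apply Finset.sum_le_sum
        intro ξ _
        exact mul_le_mul_of_nonneg_left (step1 ξ) (pw_nonneg h0 ξ)
    _ = ∑ η : X → Fin (R + 1), ∑ T : Finset X, if W η T then
          p ^ T.card * ∑ ξ ∈ fib η T, pw μ ξ else 0 := by
        simp only [Finset.mul_sum]
        rw [Finset.sum_comm]
        apply Finset.sum_congr rfl
        intro η _
        rw [Finset.sum_comm]
        apply Finset.sum_congr rfl
        intro T _
        by_cases hW : W η T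
        · simp only [hW, if_true]
          unfold fib
          rw [Finset.sum_filter]
          apply Finset.sum_congr rfl
          intro ξ _
          split_ifs
          · ring
          · ring
        · simp [hW]
    _ ≤ ∑ η : X → Fin (R + 1), ∑ T : Finset X, if W η T then
          pw μ η * ∏ x ∈ T, ((1 / 4 : ℝ) ^ (η x : ℕ) / 64) else 0 := by
        apply Finset.sum_le_sum
        intro η _
        apply Finset.sum_le_sum
        intro T _
        split_ifs
        · exact enc_one hp h0 h1 hmu η T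
        · exact le_rfl
    _ = ∑ η : X → Fin (R + 1), pw μ η * ∑ T ∈ (Finset.univ : Finset (Finset X)).filter (W η),
          ∏ x ∈ T, ((1 / 4 : ℝ) ^ (η x : ℕ) / 64) := by
        apply Finset.sum_congr rfl
        intro η _
        rw [Finset.sum_filter, Finset.mul_sum]
        apply Finset.sum_congr rfl
        intro T _
        split_ifs
        · rfl
        · ring

end Vale.Agent.P034
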