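import Vale.Agent.Lib.P034.Selector

namespace Vale.Agent.P034

open Finset

variable {X : Type*} [Fintype X] [DecidableEq X] {R : ℕ}

/-- weight of the `s`-subsets of `H` -/
noncomputable def gs (g : Finset X → ℝ) (s : ℕ) (H : Finset X) : ℝ :=
  ∑ S ∈ H.powersetCard s, g S

/-- linear weights of `H` -/
noncomputable def lamOf (g : Finset X → ℝ) (s : ℕ) (H : Finset X) (x : X) : ℝ :=
  (∑ S ∈ (H.powersetCard s).filter (fun S => x ∈ S), g S) / (s * gs g s H)

omit [Fintype X] in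
theorem lamOf_nonneg (g : Finset X → ℝ) (hg : ∀ S, 0 ≤ g S) (s : ℕ) (H : Finset X) (x : X) :
    0 ≤ lamOf g s H x := by
  unfold lamOf gs
  apply div_nonneg
  · exact Finset.sum_nonneg (fun S _ => hg S)
  · exact mul_nonneg (Nat.cast_nonneg _) (Finset.sum_nonneg (fun S _ => hg S))

omit [Fintype X] in
theorem lamOf_zero (g : Finset X → ℝ) (s : ℕ) (H : Finset X) (x : X) (hx : x ∉ H) :
    lamOf g s H x = 0 := by
  unfold lamOf
  rw [Finset.sum_eq_zero, zero_div]
  intro S hS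
  rw [Finset.mem_filter, Finset.mem_powersetCard] at hS
  exact absurd (hS.1.1 hS.2) hx

/-- double counting -/
theorem sum_weight (g : Finset X → ℝ) (s : ℕ) (H : Finset X) (f : X → ℝ) :
    ∑ x, f x * ∑ S ∈ (H.powersetCard s).filter (fun S => x ∈ S), g S =
    ∑ S ∈ H.powersetCard s, g S * ∑ x ∈ S, f x := by
  simp only [Finset.sum_filter, Finset.mul_sum]
  rw [Finset.sum_comm]
  apply Finset.sum_congr rfl
  intro S _
  rw [← Finset.sum_subset (Finset.subset_univ S)]
  · apply Finset.sum_congr rfl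
    intro x hx
    rw [if_pos hx]
    ring
  · intro x _ hx
    rw [if_neg hx, mul_zero]

theorem sum_lamOf (g : Finset X → ℝ) (s : ℕ) (hs : 1 ≤ s) (H : Finset X) (hpos : 0 < gs g s H) :
    ∑ x, lamOf g s H x = 1 := by
  unfold lamOf
  rw [← Finset.sum_div]
  have h := sum_weight g s H (fun _ => 1)
  simp only [one_mul, Finset.sum_const, nsmul_eq_mul, mul_one] at h
  rw [h]
  have h2 : ∑ S ∈ H.powersetCard s, g S * (S.card : ℝ) = s * gs g s H := by
    unfold gs
    rw [Finset.mul_sum]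
    apply Finset.sum_congr rfl
    intro S hS
    rw [(Finset.mem_powersetCard.1 hS).2]
    ring
  rw [h2]
  have : (0 : ℝ) < s := by exact_mod_cast hs
  exact div_self (by positivity)

theorem jensen (g : Finset X → ℝ) (hg : ∀ S, 0 ≤ g S) (s : ℕ) (hs : 1 ≤ s) (H : Finset X)
    (hpos : 0 < gs g s H) (ξ : X → Fin (R + 1))
    (h7 : ∑ x, ((ξ x : ℕ) : ℝ) * lamOf g s H x ≤ 7) :
    gs g s H * (1 / 8) ^ (7 * s) ≤
      ∑ S ∈ H.powersetCard s, g S * ∏ x ∈ S, (1 / 8 : ℝ) ^ (ξ x : ℕ) := by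
  have hsR : (0 : ℝ) < s := by exact_mod_cast hs
  have h1 : ∑ S ∈ H.powersetCard s, g S / gs g s H = 1 := by
    rw [← Finset.sum_div]
    exact div_self hpos.ne'
  have h2 : ∑ S ∈ H.powersetCard s, (g S / gs g s H) * ∑ x ∈ S, ((ξ x : ℕ) : ℝ) ≤ 7 * s := by
    have h3 := sum_weight g s H (fun x => ((ξ x : ℕ) : ℝ))
    have h4 : ∑ x, ((ξ x : ℕ) : ℝ) * lamOf g s H x =
        (∑ S ∈ H.powersetCard s, g S * ∑ x ∈ S, ((ξ x : ℕ) : ℝ)) / (s * gs g s H) := by
      rw [← h3, Finset.sum_div]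
      apply Finset.sum_congr rfl
      intro x _
      unfold lamOf
      rw [mul_div_assoc]
    rw [h4, div_le_iff₀ (by positivity)] at h7
    have h5 : ∑ S ∈ H.powersetCard s, (g S / gs g s H) * ∑ x ∈ S, ((ξ x : ℕ) : ℝ) =
        (∑ S ∈ H.powersetCard s, g S * ∑ x ∈ S, ((ξ x : ℕ) : ℝ)) / gs g s H := by
      rw [Finset.sum_div]
      apply Finset.sum_congr rfl
      intro S _
      ring
    rw [h5, div_le_iff₀ hpos]
    linarith
  set a : ℝ := Real.log 8 with ha
  have ha0 : 0 < a := Real.log_pos (by norm_num)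
  have hexp : Real.exp (-a) = 1 / 8 := by
    rw [Real.exp_neg, ha, Real.exp_log (by norm_num)]
    norm_num
  have h3 := convexOn_exp.map_sum_le (t := H.powersetCard s) (w := fun S => g S / gs g s H)
    (p := fun S => -a * ∑ x ∈ S, ((ξ x : ℕ) : ℝ))
    (fun S _ => div_nonneg (hg S) hpos.le) h1 (fun S _ => Set.mem_univ _)
  simp only [smul_eq_mul] at h3
  have h4 : (1 / 8 : ℝ) ^ (7 * s) ≤ Real.exp (∑ S ∈ H.powersetCard s,
      (g S / gs g s H) * (-a * ∑ x ∈ S, ((ξ x : ℕ) : ℝ))) := by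
    have h5 : ∑ S ∈ H.powersetCard s, (g S / gs g s H) * (-a * ∑ x ∈ S, ((ξ x : ℕ) : ℝ)) =
        -a * ∑ S ∈ H.powersetCard s, (g S / gs g s H) * ∑ x ∈ S, ((ξ x : ℕ) : ℝ) := by
      rw [Finset.mul_sum]
      apply Finset.sum_congr rfl
      intro S _
      ring
    rw [h5]
    calc (1 / 8 : ℝ) ^ (7 * s) = Real.exp (-a) ^ (7 * s) := by rw [hexp]
      _ = Real.exp (((7 * s : ℕ) : ℝ) * -a) := (Real.exp_nat_mul _ _).symm
      _ ≤ _ := by
        apply Real.exp_le_exp.2
        push_cast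
        nlinarith
  have h5 : ∀ S ∈ H.powersetCard s, (g S / gs g s H) *
      Real.exp (-a * ∑ x ∈ S, ((ξ x : ℕ) : ℝ)) =
      (g S * ∏ x ∈ S, (1 / 8 : ℝ) ^ (ξ x : ℕ)) / gs g s H := by
    intro S _
    have h6 : Real.exp (-a * ∑ x ∈ S, ((ξ x : ℕ) : ℝ)) = ∏ x ∈ S, (1 / 8 : ℝ) ^ (ξ x : ℕ) := by
      rw [Finset.mul_sum, Real.exp_sum]
      apply Finset.prod_congr rfl
      intro x _
      rw [mul_comm, Real.exp_nat_mul, hexp]
    rw [h6]
    ring
  have h6 := h4.trans h3
  rw [Finset.sum_congr rfl h5, ← Finset.sum_div, le_div_iff₀ hpos] at h6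
  linarith

omit [Fintype X] [DecidableEq X] in
theorem exists_level (g : Finset X → ℝ) (h0 : g ∅ ≤ 1 / 2) (H : Finset X)
    (h1 : 1 ≤ ∑ S ∈ H.powerset, g S) : ∃ s : ℕ, 1 ≤ s ∧ (1 / 2 : ℝ) ^ (s + 1) ≤ gs g s H := by
  by_contra hcon
  push Not at hcon
  rw [Finset.sum_powerset, Finset.sum_range_succ'] at h1
  have h2 : ∑ k ∈ Finset.range H.card, ∑ S ∈ H.powersetCard (k + 1), g S ≤
      ∑ k ∈ Finset.range H.card, (1 / 2 : ℝ) ^ (k + 1 + 1) :=
    Finset.sum_le_sum (fun k _ => (hcon (k + 1) (by omega)).le)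
  have h3 : ∀ n : ℕ, ∑ k ∈ Finset.range n, (1 / 2 : ℝ) ^ (k + 1 + 1) =
      1 / 2 - 1 / 2 * (1 / 2) ^ n := by
    intro n
    induction n with
    | zero => simp
    | succ n ih =>
      rw [Finset.sum_range_succ, ih]
      ring
  rw [h3] at h2
  have h4 : (0 : ℝ) < (1 / 2) ^ H.card := by positivity
  have h5 : ∑ S ∈ H.powersetCard 0, g S = g ∅ := by simp
  rw [h5] at h1
  linarith

theorem key (F : Finset (Finset X)) (g : Finset X → ℝ) (pf : ℝ) (hpf0 : 0 < pf) (hpf1 : pf ≤ 1)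
    (hg : FracCover g F) (hcost : ∑ S : Finset X, g S * pf ^ S.card ≤ 1 / 2) :
    ∃ G : Finset (Finset X), Covers G F ∧ cost (pf / 2 ^ 31) G ≤ 1 / 2 := by
  classical
  rcases F.eq_empty_or_nonempty with hFe | hF
  · refine ⟨∅, ?_, ?_⟩
    · intro H hH
      rw [hFe] at hH
      simp at hH
    · unfold cost
      simp
  by_contra hns
  have hg0 : ∀ S, 0 ≤ g S := fun S => (hg.1 S).1
  set p : ℝ := pf / 2 ^ 31 with hp
  have hp0 : 0 < p := by positivity
  have hgemp : g ∅ ≤ 1 / 2 := by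
    refine le_trans ?_ hcost
    have h1 : g ∅ = (fun S : Finset X => g S * pf ^ S.card) ∅ := by simp
    rw [h1]
    apply Finset.single_le_sum (f := fun S : Finset X => g S * pf ^ S.card) _ (Finset.mem_univ _)
    intro S _
    exact mul_nonneg (hg0 S) (by positivity)
  obtain ⟨R, μ, hμ0, hμ1, hμ2, hμ3⟩ := exists_levels hp0 (by rw [hp]; linarith)
  -- levels of the members of `F`
  have hlev : ∀ H : Finset X, ∃ s : ℕ, H ∈ F → (1 ≤ s ∧ (1 / 2 : ℝ) ^ (s + 1) ≤ gs g s H) := by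
    intro H
    by_cases hH : H ∈ F
    · obtain ⟨s, hs⟩ := exists_level g hgemp H (hg.2 H hH)
      exact ⟨s, fun _ => hs⟩
    · exact ⟨0, fun h => absurd h hH⟩
  choose s hs using hlev
  have hpos : ∀ H ∈ F, 0 < gs g (s H) H := fun H hH => lt_of_lt_of_le (by positivity) (hs H hH).2
  have hsel := selector hp0.le hμ0 hμ1 hμ2 F hF (fun H => lamOf g (s H) H)
    (fun H _ x => lamOf_nonneg g hg0 (s H) H x)
    (fun H _ x hx => lamOf_zero g (s H) H x hx)
    (fun H hH => sum_lamOf g (s H) (hs H hH).1 H (hpos H hH)) hns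
  set Y : (X → Fin (R + 1)) → ℝ := fun ξ => ∑ S : Finset X, if S.Nonempty then
    2 * (2 ^ 22) ^ S.card * g S * ∏ x ∈ S, (1 / 8 : ℝ) ^ (ξ x : ℕ) else 0 with hY
  have hterm : ∀ (ξ : X → Fin (R + 1)) (S : Finset X), 0 ≤ (if S.Nonempty then
      2 * (2 ^ 22) ^ S.card * g S * ∏ x ∈ S, (1 / 8 : ℝ) ^ (ξ x : ℕ) else 0) := by
    intro ξ S
    split_ifs
    · have h1 := hg0 S
      have h2 : 0 ≤ ∏ x ∈ S, (1 / 8 : ℝ) ^ (ξ x : ℕ) :=
        Finset.prod_nonneg (fun x _ => by positivity)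
      positivity
    · exact le_rfl
  have hY1 : ∀ ξ : X → Fin (R + 1), (if ∃ H' ∈ F, Psi (fun H => lamOf g (s H) H) ξ H' ≤ 7 then
      (1 : ℝ) else 0) ≤ Y ξ := by
    intro ξ
    by_cases hsucc : ∃ H' ∈ F, Psi (fun H => lamOf g (s H) H) ξ H' ≤ 7
    · rw [if_pos hsucc]
      obtain ⟨H, hH, hPsi⟩ := hsucc
      obtain ⟨hs1, hs2⟩ := hs H hH
      have hj := jensen g hg0 (s H) hs1 H (hpos H hH) ξ hPsi
      have h1 : ∑ S ∈ H.powersetCard (s H), (2 * (2 ^ 22) ^ S.card * g S *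
          ∏ x ∈ S, (1 / 8 : ℝ) ^ (ξ x : ℕ)) ≤ Y ξ := by
        simp only [hY]
        refine le_trans (le_of_eq ?_) (Finset.sum_le_sum_of_subset_of_nonneg
          (Finset.subset_univ (H.powersetCard (s H))) (fun S _ _ => hterm ξ S))
        apply Finset.sum_congr rfl
        intro S hS
        rw [if_pos]
        rw [Finset.mem_powersetCard] at hS
        rw [← Finset.card_pos]
        omega
      refine le_trans ?_ h1
      have h2 : ∑ S ∈ H.powersetCard (s H), (2 * (2 ^ 22) ^ S.card * g S *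
          ∏ x ∈ S, (1 / 8 : ℝ) ^ (ξ x : ℕ)) = 2 * (2 ^ 22) ^ (s H) *
          ∑ S ∈ H.powersetCard (s H), g S * ∏ x ∈ S, (1 / 8 : ℝ) ^ (ξ x : ℕ) := by
        rw [Finset.mul_sum]
        apply Finset.sum_congr rfl
        intro S hS
        rw [(Finset.mem_powersetCard.1 hS).2]
        ring
      rw [h2]
      have h3 : (1 : ℝ) = 2 * (2 ^ 22) ^ (s H) * ((1 / 2) ^ (s H + 1) * (1 / 8) ^ (7 * s H)) := by
        rw [pow_succ, pow_mul (1 / 8 : ℝ)]
        have : (2 ^ 22 : ℝ) ^ s H * ((1 / 2) ^ s H * ((1 / 8) ^ 7) ^ s H) = 1 := by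
          rw [← mul_pow, ← mul_pow]
          norm_num
        linear_combination (-1 : ℝ) * this
      refine le_trans (le_of_eq h3) ?_
      apply mul_le_mul_of_nonneg_left _ (by positivity)
      refine le_trans ?_ hj
      exact mul_le_mul_of_nonneg_right hs2 (by positivity)
    · rw [if_neg hsucc]
      exact Finset.sum_nonneg (fun S _ => hterm ξ S)
  have hEY : ∑ ξ : X → Fin (R + 1), pw μ ξ * Y ξ ≤ 1 / 4 := by
    simp only [hY, Finset.mul_sum]
    rw [Finset.sum_comm]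
    have h1 : ∀ S : Finset X, ∑ ξ : X → Fin (R + 1), pw μ ξ * (if S.Nonempty then
        2 * (2 ^ 22) ^ S.card * g S * ∏ x ∈ S, (1 / 8 : ℝ) ^ (ξ x : ℕ) else 0) ≤
        1 / 2 * (g S * pf ^ S.card) := by
      intro S
      have hgS := hg0 S
      by_cases hSne : S.Nonempty
      · simp only [hSne, if_true]
        have h2 : ∀ ξ : X → Fin (R + 1), pw μ ξ * (2 * (2 ^ 22) ^ S.card * g S *
            ∏ x ∈ S, (1 / 8 : ℝ) ^ (ξ x : ℕ)) = (2 * (2 ^ 22) ^ S.card * g S) *
            (pw μ ξ * ∏ x, (fun (x : X) (r : Fin (R + 1)) =>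
              if x ∈ S then (1 / 8 : ℝ) ^ (r : ℕ) else 1) x (ξ x)) := by
          intro ξ
          beta_reduce
          rw [Finset.prod_ite_mem, Finset.univ_inter]
          ring
        rw [Finset.sum_congr rfl (fun ξ _ => h2 ξ), ← Finset.mul_sum,
          sum_pw_mul μ (fun (x : X) (r : Fin (R + 1)) =>
              if x ∈ S then (1 / 8 : ℝ) ^ (r : ℕ) else 1)]
        have h3 : ∏ x : X, ∑ r, μ r * (if x ∈ S then (1 / 8 : ℝ) ^ (r : ℕ) else 1) =
            (∑ r, μ r * (1 / 8) ^ (r : ℕ)) ^ S.card := by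
          have h4 : ∀ x : X, ∑ r, μ r * (if x ∈ S then (1 / 8 : ℝ) ^ (r : ℕ) else 1) =
              if x ∈ S then ∑ r, μ r * (1 / 8) ^ (r : ℕ) else 1 := by
            intro x
            split_ifs
            · rfl
            · simp only [mul_one]
              exact hμ1
          rw [Finset.prod_congr rfl (fun x _ => h4 x), Finset.prod_ite_mem, Finset.univ_inter,
            Finset.prod_const]
        rw [h3]
        have h5 : 0 ≤ ∑ r, μ r * (1 / 8 : ℝ) ^ (r : ℕ) :=
          Finset.sum_nonneg (fun r _ => mul_nonneg (hμ0 r) (by positivity))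
        have h6 : (∑ r, μ r * (1 / 8 : ℝ) ^ (r : ℕ)) ^ S.card ≤ (128 * p) ^ S.card :=
          pow_le_pow_left₀ h5 hμ3 _
        have h7 : (2 ^ 22 : ℝ) ^ S.card * (128 * p) ^ S.card = (pf / 4) ^ S.card := by
          rw [← mul_pow, hp]
          congr 1
          ring
        have h8 : (pf / 4) ^ S.card ≤ pf ^ S.card / 4 := by
          obtain ⟨k, hk⟩ := Nat.exists_eq_succ_of_ne_zero (Finset.card_pos.2 hSne).ne'
          rw [hk, Nat.succ_eq_add_one, div_pow]
          apply div_le_div_of_nonneg_left (by positivity) (by norm_num)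
          calc (4 : ℝ) = 4 ^ 1 := by norm_num
            _ ≤ 4 ^ (k + 1) := pow_le_pow_right₀ (by norm_num) (by omega)
        calc 2 * (2 ^ 22) ^ S.card * g S * (∑ r, μ r * (1 / 8 : ℝ) ^ (r : ℕ)) ^ S.card
            ≤ 2 * (2 ^ 22) ^ S.card * g S * (128 * p) ^ S.card :=
              mul_le_mul_of_nonneg_left h6 (by positivity)
          _ = 2 * g S * ((2 ^ 22 : ℝ) ^ S.card * (128 * p) ^ S.card) := by ring
          _ = 2 * g S * (pf / 4) ^ S.card := by rw [h7]
          _ ≤ 2 * g S * (pf ^ S.card / 4) := mul_le_mul_of_nonneg_left h8 (by positivity)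
          _ = 1 / 2 * (g S * pf ^ S.card) := by ring
      · simp only [hSne, if_false, mul_zero, Finset.sum_const_zero]
        positivity
    calc ∑ S : Finset X, ∑ ξ : X → Fin (R + 1), pw μ ξ * (if S.Nonempty then
        2 * (2 ^ 22) ^ S.card * g S * ∏ x ∈ S, (1 / 8 : ℝ) ^ (ξ x : ℕ) else 0)
        ≤ ∑ S : Finset X, 1 / 2 * (g S * pf ^ S.card) := Finset.sum_le_sum (fun S _ => h1 S)
      _ = 1 / 2 * ∑ S : Finset X, g S * pf ^ S.card := by rw [Finset.mul_sum]
      _ ≤ 1 / 4 := by linarith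
  have hfin : (1 : ℝ) / 2 ≤ 1 / 4 := by
    refine le_trans ?_ (le_trans (Finset.sum_le_sum (fun ξ _ =>
      mul_le_mul_of_nonneg_left (hY1 ξ) (pw_nonneg hμ0 ξ))) hEY)
    refine le_trans hsel (le_of_eq ?_)
    apply Finset.sum_congr rfl
    intro ξ _
    congr 1
  norm_num at hfin

theorem qf_le (F : Finset (Finset X)) (hemp : ∅ ∉ F) : qf F ≤ 2 ^ 31 * q F := by
  unfold qf
  apply csSup_le
  · refine ⟨0, le_rfl, zero_le_one, fun S => if S.Nonempty then 1 else 0, ⟨?_, ?_⟩, ?_⟩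
    · intro S
      beta_reduce
      split_ifs <;> norm_num
    · intro H hH
      have hne : H.Nonempty := by
        rw [Finset.nonempty_iff_ne_empty]
        rintro rfl
        exact hemp hH
      have h1 : (1 : ℝ) = (fun S : Finset X => if S.Nonempty then (1 : ℝ) else 0) H := by
        beta_reduce
        rw [if_pos hne]
      refine le_trans (le_of_eq h1) ?_
      apply Finset.single_le_sum (f := fun S : Finset X => if S.Nonempty then (1 : ℝ) else 0) _
        (Finset.mem_powerset_self H)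
      intro S _
      split_ifs <;> norm_num
    · rw [Finset.sum_eq_zero]
      · norm_num
      · intro S _
        beta_reduce
        split_ifs with h
        · rw [zero_pow (Finset.card_pos.2 h).ne']
          norm_num
        · norm_num
  · rintro pf ⟨hpf0, hpf1, g, hg, hcost⟩
    have hbdd : BddAbove {p : ℝ | 0 ≤ p ∧ p ≤ 1 ∧ ∃ G : Finset (Finset X),
        Covers G F ∧ cost p G ≤ 1 / 2} := ⟨1, fun x hx => hx.2.1⟩
    have hmem : pf / 2 ^ 31 ≤ q F := by
      unfold q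
      apply le_csSup hbdd
      refine ⟨by positivity, ?_, ?_⟩
      · rw [div_le_one (by positivity)]
        exact hpf1.trans (by norm_num)
      · rcases hpf0.lt_or_eq with h | h
        · exact key F g pf h hpf1 hg hcost
        · refine ⟨F, fun H hH => ⟨H, hH, Finset.Subset.refl _⟩, ?_⟩
          unfold cost
          rw [Finset.sum_eq_zero]
          · norm_num
          · intro S hS
            rw [← h, zero_div]
            apply zero_pow
            intro hc
            rw [Finset.card_eq_zero] at hc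
            rw [hc] at hS
            exact hemp hS
    rw [div_le_iff₀ (by positivity)] at hmem
    linarith

end Vale.Agent.P034
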