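import Vale.Agent.Lib.P034.Decode

namespace Vale.Agent.P034

open Finset

variable {X : Type*} [Fintype X] [DecidableEq X] {R : ℕ}

omit [Fintype X] [DecidableEq X] in
theorem cost_nonneg {p : ℝ} (hp : 0 ≤ p) (G : Finset (Finset X)) : 0 ≤ cost p G :=
  Finset.sum_nonneg (fun S _ => by positivity)

theorem geom_bound (m : ℕ) : ∑ i ∈ Finset.range m, (1 / 16 : ℝ) ^ (i + 1) ≤ 1 / 15 := by
  have key : ∀ m : ℕ, ∑ i ∈ Finset.range m, (1 / 16 : ℝ) ^ (i + 1) =
      1 / 15 - (1 / 15) * (1 / 16) ^ m := by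
    intro m
    induction m with
    | zero => simp
    | succ m ih =>
      rw [Finset.sum_range_succ, ih, pow_succ]
      ring
  rw [key]
  have : (0 : ℝ) < (1 / 16) ^ m := by positivity
  linarith

open Classical in
theorem selector {μ : Fin (R + 1) → ℝ} {p : ℝ} (hp : 0 ≤ p) (h0 : ∀ r, 0 ≤ μ r)
    (h1 : ∑ r, μ r = 1) (hmu : ∀ r : Fin (R + 1), (r : ℕ) < R → μ r = 64 * 4 ^ (r : ℕ) * p)
    (F : Finset (Finset X)) (hF : F.Nonempty) (lam : Finset X → X → ℝ)
    (hlam0 : ∀ H ∈ F, ∀ x, 0 ≤ lam H x) (hlamS : ∀ H ∈ F, ∀ x, x ∉ H → lam H x = 0)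
    (hlam1 : ∀ H ∈ F, ∑ x, lam H x = 1)
    (hns : ¬ ∃ G : Finset (Finset X), Covers G F ∧ cost p G ≤ 1 / 2) :
    1 / 2 ≤ ∑ ξ : X → Fin (R + 1), pw μ ξ *
      (if ∃ H' ∈ F, Psi lam ξ H' ≤ 7 then (1 : ℝ) else 0) := by
  set m := Fintype.card X with hm
  have hm2 : (Fintype.card X : ℝ) ≤ 2 ^ m := by
    rw [← hm]
    exact_mod_cast (Nat.lt_two_pow_self (n := m)).le
  set c : (X → Fin (R + 1)) → ℝ := fun ξ => ∑ i ∈ Finset.range (m + 1),
    cost p (frag (Wi F hF lam i) ξ) with hc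
  -- expected cost
  have hEc : ∑ ξ : X → Fin (R + 1), pw μ ξ * c ξ ≤ 1 / 4 := by
    have hi : ∀ i : ℕ, i ≠ 0 → ∑ ξ : X → Fin (R + 1), pw μ ξ * cost p (frag (Wi F hF lam i) ξ) ≤
        (1 / 16) ^ i := by
      intro i hi
      refine (enc hp h0 h1 hmu (Wi F hF lam i)).trans ?_
      calc ∑ η : X → Fin (R + 1), pw μ η *
            ∑ T ∈ (Finset.univ : Finset (Finset X)).filter (Wi F hF lam i η),
            ∏ x ∈ T, ((1 / 4 : ℝ) ^ (η x : ℕ) / 64)
          ≤ ∑ η : X → Fin (R + 1), pw μ η * (1 / 16) ^ i :=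
            Finset.sum_le_sum (fun η _ => mul_le_mul_of_nonneg_left
              (weight_pos F hF lam hlam0 i hi η) (pw_nonneg h0 η))
        _ = (1 / 16) ^ i := by rw [← Finset.sum_mul, sum_pw μ h1, one_mul]
    have hz : ∑ ξ : X → Fin (R + 1), pw μ ξ * cost p (frag (Wi F hF lam 0) ξ) ≤ 1 / 8 := by
      refine (enc hp h0 h1 hmu (Wi F hF lam 0)).trans ?_
      calc ∑ η : X → Fin (R + 1), pw μ η *
            ∑ T ∈ (Finset.univ : Finset (Finset X)).filter (Wi F hF lam 0 η),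
            ∏ x ∈ T, ((1 / 4 : ℝ) ^ (η x : ℕ) / 64)
          ≤ ∑ η : X → Fin (R + 1), pw μ η * (1 / 8) :=
            Finset.sum_le_sum (fun η _ => mul_le_mul_of_nonneg_left
              (weight_zero F hF lam hlam0 hlam1 η) (pw_nonneg h0 η))
        _ = 1 / 8 := by rw [← Finset.sum_mul, sum_pw μ h1, one_mul]
    have hswap : ∑ ξ : X → Fin (R + 1), pw μ ξ * c ξ = ∑ i ∈ Finset.range (m + 1),
        ∑ ξ : X → Fin (R + 1), pw μ ξ * cost p (frag (Wi F hF lam i) ξ) := by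
      simp only [hc, Finset.mul_sum]
      rw [Finset.sum_comm]
    rw [hswap, Finset.sum_range_succ']
    have h2 : ∑ i ∈ Finset.range m, ∑ ξ : X → Fin (R + 1), pw μ ξ *
        cost p (frag (Wi F hF lam (i + 1)) ξ) ≤ 1 / 15 := by
      refine le_trans (Finset.sum_le_sum (fun i _ => hi (i + 1) (Nat.succ_ne_zero i))) ?_
      exact geom_bound m
    linarith
  -- pointwise
  have hpt : ∀ ξ : X → Fin (R + 1), 1 / 2 - 1 / 2 *
      (if ∃ H' ∈ F, Psi lam ξ H' ≤ 7 then (1 : ℝ) else 0) ≤ c ξ := by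
    intro ξ
    have hcnn : 0 ≤ c ξ := Finset.sum_nonneg (fun i _ => cost_nonneg hp _)
    by_cases hs : ∃ H' ∈ F, Psi lam ξ H' ≤ 7
    · rw [if_pos hs]
      linarith
    · rw [if_neg hs]
      set G : Finset (Finset X) := (Finset.range (m + 1)).biUnion
        (fun i => frag (Wi F hF lam i) ξ) with hG
      have hcov : Covers G F := by
        intro H hH
        rcases chain F hF lam hlam0 hlamS hlam1 ξ H hH m hm2 with h2 | h2
        · obtain ⟨i, him, η, hη, hTH, hW⟩ := h2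
          refine ⟨Finset.univ.filter (fun x => η x < ξ x), ?_, hTH⟩
          rw [hG, Finset.mem_biUnion]
          refine ⟨i, Finset.mem_range.2 (by omega), ?_⟩
          unfold frag
          rw [Finset.mem_filter]
          exact ⟨Finset.mem_univ _, η, hη, rfl, hW⟩
        · exact absurd h2 hs
      have hcost : 1 / 2 < cost p G := by
        by_contra hcon
        push Not at hcon
        exact hns ⟨G, hcov, hcon⟩
      have hle : cost p G ≤ c ξ := by
        simp only [hc]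
        unfold cost
        have h3 : ∀ K : Finset (Finset X), ∑ S ∈ K, p ^ S.card =
            ∑ S : Finset X, if S ∈ K then p ^ S.card else 0 := by
          intro K
          rw [Finset.sum_ite_mem, Finset.univ_inter]
        simp only [h3]
        rw [Finset.sum_comm]
        apply Finset.sum_le_sum
        intro S _
        have hnn : ∀ i ∈ Finset.range (m + 1), 0 ≤
            (if S ∈ frag (Wi F hF lam i) ξ then p ^ S.card else 0) := by
          intro i _
          split_ifs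
          · positivity
          · exact le_rfl
        split_ifs with h4
        · rw [hG, Finset.mem_biUnion] at h4
          obtain ⟨i, hi, h5⟩ := h4
          refine le_trans (le_of_eq ?_) (Finset.single_le_sum hnn hi)
          rw [if_pos h5]
        · exact Finset.sum_nonneg hnn
      linarith
  have h2 : ∑ ξ : X → Fin (R + 1), pw μ ξ * (1 / 2 - 1 / 2 *
      (if ∃ H' ∈ F, Psi lam ξ H' ≤ 7 then (1 : ℝ) else 0)) ≤ 1 / 4 :=
    le_trans (Finset.sum_le_sum (fun ξ _ =>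
      mul_le_mul_of_nonneg_left (hpt ξ) (pw_nonneg h0 ξ))) hEc
  have h3 : ∑ ξ : X → Fin (R + 1), pw μ ξ * (1 / 2 - 1 / 2 *
      (if ∃ H' ∈ F, Psi lam ξ H' ≤ 7 then (1 : ℝ) else 0)) =
      1 / 2 - 1 / 2 * ∑ ξ : X → Fin (R + 1), pw μ ξ *
      (if ∃ H' ∈ F, Psi lam ξ H' ≤ 7 then (1 : ℝ) else 0) := by
    have h4 : ∀ ξ : X → Fin (R + 1), pw μ ξ * (1 / 2 - 1 / 2 *
        (if ∃ H' ∈ F, Psi lam ξ H' ≤ 7 then (1 : ℝ) else 0)) =
        1 / 2 * pw μ ξ - 1 / 2 * (pw μ ξ *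
        (if ∃ H' ∈ F, Psi lam ξ H' ≤ 7 then (1 : ℝ) else 0)) := by
      intro ξ
      ring
    rw [Finset.sum_congr rfl (fun ξ _ => h4 ξ), Finset.sum_sub_distrib, ← Finset.mul_sum,
      ← Finset.mul_sum, sum_pw μ h1, mul_one]
  rw [h3] at h2
  linarith

theorem exists_levels {p : ℝ} (hp : 0 < p) (hp1 : 64 * p ≤ 3) :
    ∃ (R : ℕ) (μ : Fin (R + 1) → ℝ), (∀ r, 0 ≤ μ r) ∧ ∑ r, μ r = 1 ∧
      (∀ r : Fin (R + 1), (r : ℕ) < R → μ r = 64 * 4 ^ (r : ℕ) * p) ∧
      ∑ r, μ r * (1 / 8) ^ (r : ℕ) ≤ 128 * p := by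
  have h64 : 0 < 64 * p := by positivity
  obtain ⟨R, hR1, hR2⟩ := exists_nat_pow_near (x := 3 / (64 * p)) (y := (4 : ℝ))
    (by rw [le_div_iff₀ h64]; linarith) (by norm_num)
  rw [le_div_iff₀ h64] at hR1
  rw [div_lt_iff₀ h64, pow_succ] at hR2
  have hgeo : ∀ n : ℕ, ∑ k ∈ Finset.range n, 64 * (4 : ℝ) ^ k * p = 64 * p * (4 ^ n - 1) / 3 := by
    intro n
    induction n with
    | zero => simp
    | succ n ih =>
      rw [Finset.sum_range_succ, ih, pow_succ]
      ring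
  have hgeo8 : ∀ n : ℕ, ∑ k ∈ Finset.range n, 64 * (4 : ℝ) ^ k * p * (1 / 8) ^ k =
      64 * p * (2 - 2 * (1 / 2) ^ n) := by
    intro n
    induction n with
    | zero => simp
    | succ n ih =>
      rw [Finset.sum_range_succ, ih, pow_succ]
      have h3 : (4 : ℝ) ^ n * (1 / 8) ^ n = (1 / 2) ^ n := by
        rw [← mul_pow]; norm_num
      have h4 : 64 * (4 : ℝ) ^ n * p * (1 / 8) ^ n = 64 * p * (1 / 2) ^ n := by
        rw [← h3]; ring
      rw [h4]
      ring
  set last : ℝ := 1 - 64 * p * (4 ^ R - 1) / 3 with hlast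
  have hlast0 : 0 ≤ last := by
    rw [hlast]
    nlinarith
  have hlast1 : last ≤ 1 := by
    rw [hlast]
    have : (1 : ℝ) ≤ 4 ^ R := one_le_pow₀ (by norm_num)
    have : 0 ≤ 64 * p * (4 ^ R - 1) / 3 := by
      apply div_nonneg _ (by norm_num)
      apply mul_nonneg h64.le
      linarith
    linarith
  refine ⟨R, fun r => if (r : ℕ) < R then 64 * 4 ^ (r : ℕ) * p else last, ?_, ?_, ?_, ?_⟩
  · intro r
    beta_reduce
    split_ifs
    · positivity
    · exact hlast0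
  · rw [Fin.sum_univ_castSucc]
    simp only [Fin.val_castSucc, Fin.is_lt, if_true, Fin.val_last, lt_irrefl, if_false]
    rw [Fin.sum_univ_eq_sum_range (fun k => 64 * (4 : ℝ) ^ k * p) R, hgeo, hlast]
    ring
  · intro r hr
    simp [hr]
  · rw [Fin.sum_univ_castSucc]
    simp only [Fin.val_castSucc, Fin.is_lt, if_true, Fin.val_last, lt_irrefl, if_false]
    rw [Fin.sum_univ_eq_sum_range (fun k => 64 * (4 : ℝ) ^ k * p * (1 / 8) ^ k) R, hgeo8]
    have h5 : last * (1 / 8) ^ R ≤ 64 * p * (2 * (1 / 2) ^ R) := by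
      have h6 : (4 : ℝ) ^ R * (1 / 8) ^ R = (1 / 2) ^ R := by
        rw [← mul_pow]; norm_num
      have h7 : (0 : ℝ) < (1 / 8) ^ R := by positivity
      calc last * (1 / 8) ^ R ≤ 1 * (1 / 8) ^ R := mul_le_mul_of_nonneg_right hlast1 h7.le
        _ ≤ (2 * (4 ^ R * (64 * p))) * (1 / 8) ^ R := by
            apply mul_le_mul_of_nonneg_right _ h7.le
            nlinarith
        _ = 64 * p * (2 * (1 / 2) ^ R) := by rw [← h6]; ring
    linarith

end Vale.Agent.P034
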